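import Mathlib

/-!
Weak approximation and the inequality `∑ f_w ≤ [K : C(T)]` (P025, blueprint (7.1) (b)), in a
residue-free form.
-/

namespace P025H458

open Polynomial

variable {C : Type*} [NontriviallyNormedField C] {K : Type*} [Field K] [Algebra C K]

theorem na_sub {w : AbsoluteValue K ℝ} (h : IsNonarchimedean w) (x y : K) :
    w (x - y) ≤ max (w x) (w y) := by
  have := h x (-y)
  rwa [AbsoluteValue.map_neg, ← sub_eq_add_neg] at this

theorem na_sum {w : AbsoluteValue K ℝ} (h : IsNonarchimedean w) {ι : Type*} (s : Finset ι)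
    (f : ι → K) {r : ℝ} (hr : 0 ≤ r) (hf : ∀ i ∈ s, w (f i) ≤ r) : w (∑ i ∈ s, f i) ≤ r := by
  classical
  induction s using Finset.induction_on with
  | empty => simpa using hr
  | insert a s ha ih =>
    rw [Finset.sum_insert ha]
    refine (h _ _).trans (max_le (hf a (Finset.mem_insert_self _ _)) (ih ?_))
    intro i hi
    exact hf i (Finset.mem_insert_of_mem hi)

theorem na_sum_lt {w : AbsoluteValue K ℝ} (h : IsNonarchimedean w) {ι : Type*} (s : Finset ι)
    (f : ι → K) {r : ℝ} (hr : 0 < r) (hf : ∀ i ∈ s, w (f i) < r) : w (∑ i ∈ s, f i) < r := by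
  classical
  induction s using Finset.induction_on with
  | empty => simpa using hr
  | insert a s ha ih =>
    rw [Finset.sum_insert ha]
    refine (h _ _).trans_lt (max_lt (hf a (Finset.mem_insert_self _ _)) (ih ?_))
    intro i hi
    exact hf i (Finset.mem_insert_of_mem hi)

/-- two absolute values extending the (nontrivial) norm of `C` which are equivalent are equal -/
theorem eq_of_isEquiv (v w : AbsoluteValue K ℝ) (hv : ∀ c : C, v (algebraMap C K c) = ‖c‖)
    (hw : ∀ c : C, w (algebraMap C K c) = ‖c‖) (h : v.IsEquiv w) : v = w := by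
  obtain ⟨s, hs, hsw⟩ := AbsoluteValue.isEquiv_iff_exists_rpow_eq.mp h
  obtain ⟨c, hc⟩ := NormedField.exists_one_lt_norm C
  have h1 : ‖c‖ ^ s = ‖c‖ := by
    have := congrFun hsw (algebraMap C K c)
    simpa only [hv, hw] using this
  have h2 : s = 1 := by
    have h3 : ‖c‖ ^ s = ‖c‖ ^ (1 : ℝ) := by rw [h1, Real.rpow_one]
    exact (Real.strictMono_rpow_of_base_gt_one hc).injective h3
  subst h2
  ext x
  have := congrFun hsw x
  simpa only [Real.rpow_one] using this

theorem isNontrivial_of_ext (v : AbsoluteValue K ℝ) (hv : ∀ c : C, v (algebraMap C K c) = ‖c‖) :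
    v.IsNontrivial := by
  obtain ⟨c, hc⟩ := NormedField.exists_one_lt_norm C
  refine ⟨algebraMap C K c, ?_, ?_⟩
  · intro h0
    have h1 := hv c
    rw [h0, map_zero] at h1
    linarith
  · rw [hv]
    exact ne_of_gt hc

/-- weak approximation: an idempotent-like element -/
theorem exists_idem {ι : Type*} [Finite ι] (w : ι → AbsoluteValue K ℝ)
    (hna : ∀ i, IsNonarchimedean (w i)) (hext : ∀ i (c : C), w i (algebraMap C K c) = ‖c‖)
    (hinj : Function.Injective w) (i : ι) :
    ∃ e : K, w i (e - 1) < 1 ∧ w i e = 1 ∧ ∀ j, j ≠ i → w j e < 1 := by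
  obtain ⟨a, ha, haj⟩ := AbsoluteValue.exists_one_lt_lt_one_pi_of_not_isEquiv (v := w)
    (fun i => isNontrivial_of_ext (w i) (hext i))
    (fun i j hij h => hij (hinj (eq_of_isEquiv (w i) (w j) (hext i) (hext j) h))) i
  have hi : w i (1 + a) = w i a := by
    have h1 : w i (1 : K) ≠ w i a := by rw [map_one]; exact ne_of_lt ha
    have h2 := (hna i).add_eq_max_of_ne h1
    rw [h2, map_one, max_eq_right ha.le]
  have hj : ∀ j, j ≠ i → w j (1 + a) = 1 := by
    intro j hji
    have h1 : w j (1 : K) ≠ w j a := by rw [map_one]; exact ne_of_gt (haj j hji)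
    have h2 := (hna j).add_eq_max_of_ne h1
    rw [h2, map_one, max_eq_left (haj j hji).le]
  have h0 : (1 + a : K) ≠ 0 := by
    intro h
    rw [h, map_zero] at hi
    linarith
  refine ⟨a / (1 + a), ?_, ?_, ?_⟩
  · have h3 : a / (1 + a) - 1 = -(1 + a)⁻¹ := by
      field_simp
      ring
    rw [h3, AbsoluteValue.map_neg, map_inv₀, hi]
    exact inv_lt_one_of_one_lt₀ ha
  · rw [map_div₀, hi, div_self (by linarith)]
  · intro j hji
    rw [map_div₀, hj j hji, div_one]
    exact haj j hji

/-- weak approximation: prescribed reduction at one place, small at all the others -/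
theorem exists_approx {ι : Type*} [Finite ι] (w : ι → AbsoluteValue K ℝ)
    (hna : ∀ i, IsNonarchimedean (w i)) (hext : ∀ i (c : C), w i (algebraMap C K c) = ‖c‖)
    (hinj : Function.Injective w) (i : ι) (x : K) {ε : ℝ} (hε : 0 < ε) :
    ∃ y : K, w i (y - x) < ε ∧ ∀ j, j ≠ i → w j y < ε := by
  have := Fintype.ofFinite ι
  obtain ⟨e, he1, he, hej⟩ := exists_idem w hna hext hinj i
  -- `z = 1 - (1 - e ^ n) ^ n` is close to one at `i` and close to zero elsewhere
  obtain ⟨M, hM0, hM⟩ : ∃ M : ℝ, 0 < M ∧ ∀ j, w j x ≤ M := by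
    classical
    refine ⟨1 + ∑ j, w j x, ?_, fun j => ?_⟩
    · have : 0 ≤ ∑ j, w j x := Finset.sum_nonneg fun j _ => (w j).nonneg x
      linarith
    · have := Finset.single_le_sum (f := fun j => w j x) (fun j _ => (w j).nonneg x)
        (Finset.mem_univ j)
      linarith
  -- powers of `e` at `j ≠ i`
  have hpow : ∀ j, ∃ n : ℕ, ∀ m, n ≤ m → (j ≠ i → w j e ^ m * M < ε) ∧ w i (e - 1) ^ m * M < ε := by
    intro j
    have h1 : Filter.Tendsto (fun m : ℕ => w i (e - 1) ^ m * M) Filter.atTop (nhds 0) := by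
      simpa using (tendsto_pow_atTop_nhds_zero_of_lt_one ((w i).nonneg _) he1).mul_const M
    have h2 := (h1.eventually (gt_mem_nhds hε))
    by_cases hji : j = i
    · obtain ⟨n, hn⟩ := Filter.eventually_atTop.mp h2
      exact ⟨n, fun m hm => ⟨fun h => absurd hji h, hn m hm⟩⟩
    · have h3 : Filter.Tendsto (fun m : ℕ => w j e ^ m * M) Filter.atTop (nhds 0) := by
        simpa using (tendsto_pow_atTop_nhds_zero_of_lt_one ((w j).nonneg _) (hej j hji)).mul_const M
      obtain ⟨n, hn⟩ := Filter.eventually_atTop.mp (h2.and (h3.eventually (gt_mem_nhds hε)))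
      exact ⟨n, fun m hm => ⟨fun _ => (hn m hm).2, (hn m hm).1⟩⟩
  choose n hn using hpow
  obtain ⟨m, hm⟩ : ∃ m, ∀ j, n j ≤ m := ⟨∑ j, n j, fun j =>
    Finset.single_le_sum (f := n) (fun _ _ => Nat.zero_le _) (Finset.mem_univ j)⟩
  -- take `z = 1 - (1 - e ^ m) ^ m`
  have hd : ∀ (k : ℕ) (u : K) (j : ι), w j u ≤ 1 → ∃ v : K, w j v ≤ 1 ∧ u ^ k - 1 = (u - 1) * v := by
    intro k u j hu
    refine ⟨∑ l ∈ Finset.range k, u ^ l, ?_, ?_⟩
    · refine na_sum (hna j) _ _ zero_le_one fun l _ => ?_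
      rw [map_pow]
      exact pow_le_one₀ ((w j).nonneg u) hu
    · rw [mul_comm, geom_sum_mul]
  have hle : ∀ j, w j e ≤ 1 := by
    intro j
    by_cases hji : j = i
    · rw [hji, he]
    · exact (hej j hji).le
  refine ⟨(1 - (1 - e ^ m) ^ m) * x, ?_, ?_⟩
  · have h1 : (1 - (1 - e ^ m) ^ m) * x - x = -((1 - e ^ m) ^ m * x) := by ring
    rw [h1, AbsoluteValue.map_neg, map_mul, map_pow]
    have h2 : w i (1 - e ^ m) ≤ w i (e - 1) := by
      obtain ⟨v, hv, hv'⟩ := hd m e i (hle i)
      rw [show (1 : K) - e ^ m = -(e ^ m - 1) by ring, AbsoluteValue.map_neg, hv', map_mul]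
      exact mul_le_of_le_one_right ((w i).nonneg _) hv
    calc w i (1 - e ^ m) ^ m * w i x ≤ w i (e - 1) ^ m * M :=
          mul_le_mul (pow_le_pow_left₀ ((w i).nonneg _) h2 m) (hM i) ((w i).nonneg _)
            (pow_nonneg ((w i).nonneg _) _)
      _ < ε := (hn i m (hm i)).2
  · intro j hji
    have h1 : w j (1 - e ^ m) ≤ 1 := by
      refine (na_sub (hna j) _ _).trans (max_le ?_ ?_)
      · rw [map_one]
      · rw [map_pow]; exact pow_le_one₀ ((w j).nonneg _) (hle j)
    obtain ⟨v, hv, hv'⟩ := hd m (1 - e ^ m) j h1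
    have h2 : (1 - (1 - e ^ m) ^ m) = e ^ m * v := by
      have : (1 - e ^ m) ^ m - 1 = -(e ^ m * v) := by rw [hv']; ring
      linear_combination -this
    rw [h2, map_mul, map_mul, map_pow]
    calc w j e ^ m * w j v * w j x ≤ w j e ^ m * 1 * M := by
          refine mul_le_mul (mul_le_mul_of_nonneg_left hv (pow_nonneg ((w j).nonneg _) _)) (hM j)
            ((w j).nonneg _) ?_
          positivity
      _ = w j e ^ m * M := by ring
      _ < ε := (hn j m (hm j)).1 hji

end P025H458
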