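import Mathlib

/-!
Extensions of a rank one absolute value `g` of a field `F ⊇ C` (with value group that of the
algebraically closed field `C`) to an algebraic extension `K`, by valuation rings
(P025, blueprint (7.1) (b)).
-/

namespace P025H458

variable {C : Type*} [NormedField C] [IsAlgClosed C]
  {F : Type*} [Field F] [Algebra C F] {K : Type*} [Field K] [Algebra F K] [Algebra C K]
  [IsScalarTower C F K]

/-- if `g` has the value group of `C` and `V` is a valuation subring of the algebraic extension `K`
containing the unit ball of `g`, every nonzero element of `K` is a constant times a unit of `V` -/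
theorem exists_const_mul [Algebra.IsAlgebraic F K] (g : AbsoluteValue F ℝ)
    (hext : ∀ c : C, g (algebraMap C F c) = ‖c‖)
    (hval : ∀ f : F, ∃ c : C, g f = ‖c‖) (V : ValuationSubring K)
    (hV : ∀ f : F, g f ≤ 1 → algebraMap F K f ∈ V) (x : K) (hx : x ≠ 0) :
    ∃ c : C, c ≠ 0 ∧ V.valuation x = V.valuation (algebraMap C K c) := by
  classical
  -- units of the unit ball of `g` are units of `V`
  have hunit : ∀ f : F, g f = 1 → V.valuation (algebraMap F K f) = 1 := by
    intro f hf
    have hf0 : f ≠ 0 := by rintro rfl; simp at hf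
    refine le_antisymm ((V.valuation_le_one_iff _).mpr (hV f hf.le)) ?_
    have h1 : V.valuation (algebraMap F K f⁻¹) ≤ 1 := by
      refine (V.valuation_le_one_iff _).mpr (hV _ ?_)
      rw [map_inv₀, hf, inv_one]
    rw [map_inv₀, map_inv₀] at h1
    have h2 : V.valuation (algebraMap F K f) ≠ 0 := by
      rw [Valuation.ne_zero_iff]
      simpa using hf0
    exact (inv_le_one₀ (zero_lt_iff.mpr h2)).mp h1
  -- valuations of elements of `F`
  have hF : ∀ f : F, f ≠ 0 → ∃ c : C, c ≠ 0 ∧
      V.valuation (algebraMap F K f) = V.valuation (algebraMap C K c) := by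
    intro f hf
    obtain ⟨c, hc⟩ := hval f
    have hc0 : c ≠ 0 := by
      rintro rfl
      rw [norm_zero] at hc
      exact hf (g.eq_zero.mp hc)
    refine ⟨c, hc0, ?_⟩
    have h1 : g (f / algebraMap C F c) = 1 := by
      rw [map_div₀, hext, hc, div_self (norm_ne_zero_iff.mpr hc0)]
    have h2 := hunit _ h1
    rw [map_div₀, map_div₀, ← IsScalarTower.algebraMap_apply C F K] at h2
    have h3 : V.valuation (algebraMap C K c) ≠ 0 := by
      rw [Valuation.ne_zero_iff]
      simpa using hc0
    rwa [div_eq_one_iff_eq h3] at h2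
  -- two terms of a polynomial relation have the same valuation
  obtain ⟨P, hP0, hP⟩ := Algebra.IsAlgebraic.isAlgebraic (R := F) x
  have hvx : V.valuation x ≠ 0 := (Valuation.ne_zero_iff _).mpr hx
  have key : ∃ i ∈ P.support, ∃ j ∈ P.support, i < j ∧
      V.valuation (algebraMap F K (P.coeff i) * x ^ i) =
        V.valuation (algebraMap F K (P.coeff j) * x ^ j) := by
    by_contra hcon
    push Not at hcon
    have hinj : Set.InjOn (fun i => V.valuation (algebraMap F K (P.coeff i) * x ^ i))
        (P.support : Set ℕ) := by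
      intro i hi j hj hij
      rcases lt_trichotomy i j with h | h | h
      · exact absurd hij (hcon i hi j hj h)
      · exact h
      · exact absurd hij.symm (hcon j hj i hi h)
    have hne : P.support.Nonempty := Polynomial.support_nonempty.mpr hP0
    obtain ⟨m, hm, hmax⟩ := Finset.exists_max_image P.support
      (fun i => V.valuation (algebraMap F K (P.coeff i) * x ^ i)) hne
    rw [Polynomial.aeval_eq_sum_range] at hP
    have h0 : ∑ i ∈ P.support, algebraMap F K (P.coeff i) * x ^ i = 0 := by
      rw [← hP]
      refine (Finset.sum_subset ?_ ?_).trans (Finset.sum_congr rfl fun i _ => ?_)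
      · exact Polynomial.supp_subset_range_natDegree_succ
      · intro i _ hi
        simp [Polynomial.notMem_support_iff.mp hi]
      · rw [Algebra.smul_def]
    rw [← Finset.add_sum_erase _ _ hm] at h0
    have h1 : algebraMap F K (P.coeff m) * x ^ m =
        -∑ i ∈ P.support.erase m, algebraMap F K (P.coeff i) * x ^ i := by
      linear_combination h0
    have h2 : V.valuation (algebraMap F K (P.coeff m) * x ^ m) ≠ 0 := by
      rw [Valuation.ne_zero_iff]
      refine mul_ne_zero ?_ (pow_ne_zero _ hx)
      simpa using Polynomial.mem_support_iff.mp hm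
    have h3 : V.valuation (algebraMap F K (P.coeff m) * x ^ m) <
        V.valuation (algebraMap F K (P.coeff m) * x ^ m) := by
      conv_lhs => rw [h1, Valuation.map_neg]
      refine Valuation.map_sum_lt _ h2 fun i hi => ?_
      refine lt_of_le_of_ne (hmax i (Finset.mem_of_mem_erase hi)) fun h => ?_
      exact Finset.ne_of_mem_erase hi (hinj (Finset.mem_of_mem_erase hi) hm h)
    exact lt_irrefl _ h3
  obtain ⟨i, hi, j, hj, hij, he⟩ := key
  have hci := Polynomial.mem_support_iff.mp hi
  have hcj := Polynomial.mem_support_iff.mp hj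
  obtain ⟨c, hc0, hc⟩ := hF (P.coeff i / P.coeff j) (div_ne_zero hci hcj)
  have hn : 0 < j - i := Nat.sub_pos_of_lt hij
  obtain ⟨d, hd⟩ := IsAlgClosed.exists_pow_nat_eq c hn
  have hd0 : d ≠ 0 := by
    rintro rfl
    rw [zero_pow hn.ne'] at hd
    exact hc0 hd.symm
  refine ⟨d, hd0, ?_⟩
  have hvj : V.valuation (algebraMap F K (P.coeff j)) ≠ 0 := by
    rw [Valuation.ne_zero_iff]; simpa using hcj
  have h4 : V.valuation x ^ (j - i) = V.valuation (algebraMap C K d) ^ (j - i) := by
    rw [← map_pow V.valuation (algebraMap C K d), ← map_pow (algebraMap C K), hd, ← hc, map_div₀,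
      map_div₀, eq_div_iff hvj]
    rw [map_mul, map_mul, map_pow, map_pow] at he
    have h5 : V.valuation x ^ j = V.valuation x ^ (j - i) * V.valuation x ^ i := by
      rw [← pow_add, Nat.sub_add_cancel hij.le]
    rw [h5] at he
    have h6 : V.valuation x ^ i ≠ 0 := pow_ne_zero _ hvx
    apply mul_right_cancel₀ h6
    rw [he]
    ac_rfl
  exact (pow_left_inj₀ zero_le zero_le hn.ne').mp h4

/-- the unit ball of `g` as a subring -/
def ball (g : AbsoluteValue F ℝ) (hg : IsNonarchimedean g) : Subring F where
  carrier := {f | g f ≤ 1}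
  mul_mem' {a b} ha hb := by
    simp only [Set.mem_ofPred_eq] at ha hb ⊢
    rw [map_mul]
    exact mul_le_one₀ ha (g.nonneg _) hb
  one_mem' := by simp
  add_mem' {a b} ha hb := (hg a b).trans (max_le ha hb)
  zero_mem' := by simp
  neg_mem' {a} ha := by
    simp only [Set.mem_ofPred_eq] at ha ⊢
    rwa [AbsoluteValue.map_neg]

/-- **every valuation subring over the unit ball of `g`, other than the whole field, is the unit
ball of an absolute value extending `g`** -/
theorem exists_abs_of_valuationSubring [Algebra.IsAlgebraic F K] (g : AbsoluteValue F ℝ)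
    (hext : ∀ c : C, g (algebraMap C F c) = ‖c‖)
    (hval : ∀ f : F, ∃ c : C, g f = ‖c‖) (V : ValuationSubring K)
    (hV : ∀ f : F, g f ≤ 1 → algebraMap F K f ∈ V) (hVtop : ∃ x : K, x ∉ V) :
    ∃ w : AbsoluteValue K ℝ, IsNonarchimedean w ∧ (∀ f : F, w (algebraMap F K f) = g f) ∧
      ∀ x : K, w x ≤ 1 ↔ x ∈ V := by
  classical
  have hc := exists_const_mul g hext hval V hV
  -- constants in `V`
  have hone : ∀ c : C, V.valuation (algebraMap C K c) ≤ 1 ↔ ‖c‖ ≤ 1 := by
    intro c
    have himp : ∀ c : C, ‖c‖ ≤ 1 → algebraMap C K c ∈ V := by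
      intro c hc1
      rw [IsScalarTower.algebraMap_apply C F K]
      exact hV _ (by rw [hext]; exact hc1)
    rw [ValuationSubring.valuation_le_one_iff]
    refine ⟨fun h => ?_, himp c⟩
    by_contra hlt
    push Not at hlt
    -- then all constants are in `V`, so `V` is everything
    have hall : ∀ d : C, algebraMap C K d ∈ V := by
      intro d
      obtain ⟨n, hn⟩ := pow_unbounded_of_one_lt ‖d‖ hlt
      have h1 : algebraMap C K (d / c ^ n) ∈ V := by
        refine himp _ ?_
        rw [norm_div, norm_pow]
        exact (div_le_one (by positivity)).mpr hn.le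
      have h2 : algebraMap C K d = algebraMap C K (d / c ^ n) * (algebraMap C K c) ^ n := by
        rw [← map_pow, ← map_mul, div_mul_cancel₀]
        refine pow_ne_zero _ ?_
        rintro rfl
        rw [norm_zero] at hlt
        linarith
      rw [h2]
      exact mul_mem h1 (pow_mem h _)
    obtain ⟨x, hx⟩ := hVtop
    apply hx
    by_cases hx0 : x = 0
    · rw [hx0]; exact zero_mem _
    obtain ⟨d, -, hd⟩ := hc x hx0
    rw [← ValuationSubring.valuation_le_one_iff, hd, ValuationSubring.valuation_le_one_iff]
    exact hall d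
  have hle : ∀ c d : C, V.valuation (algebraMap C K c) ≤ V.valuation (algebraMap C K d) ↔
      ‖c‖ ≤ ‖d‖ := by
    intro c d
    by_cases hd : d = 0
    · subst hd
      simp
    · have h1 := hone (c / d)
      have h2 : V.valuation (algebraMap C K d) ≠ 0 := by
        rw [Valuation.ne_zero_iff]; simpa using hd
      rw [map_div₀, map_div₀, norm_div, div_le_one₀ (zero_lt_iff.mpr h2),
        div_le_one₀ (norm_pos_iff.mpr hd)] at h1
      exact h1
  have heq : ∀ c d : C, V.valuation (algebraMap C K c) = V.valuation (algebraMap C K d) →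
      ‖c‖ = ‖d‖ := fun c d h => le_antisymm ((hle c d).mp h.le) ((hle d c).mp h.ge)
  have hc' : ∀ x : K, ∃ c : C, V.valuation x = V.valuation (algebraMap C K c) := by
    intro x
    by_cases hx : x = 0
    · exact ⟨0, by simp [hx]⟩
    · obtain ⟨c, -, h⟩ := hc x hx
      exact ⟨c, h⟩
  choose s hs using hc'
  have hsle : ∀ x y : K, ‖s x‖ ≤ ‖s y‖ ↔ V.valuation x ≤ V.valuation y := by
    intro x y
    rw [hs x, hs y, hle]
  have hmul : ∀ x y : K, ‖s (x * y)‖ = ‖s x‖ * ‖s y‖ := by
    intro x y
    rw [← norm_mul]
    apply heq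
    rw [← hs, map_mul, map_mul, map_mul, ← hs, ← hs]
  have hmax : ∀ x y : K, ‖s (x + y)‖ ≤ max ‖s x‖ ‖s y‖ := by
    intro x y
    rcases le_max_iff.mp (V.valuation.map_add x y) with h | h
    · exact le_max_of_le_left ((hsle _ _).mpr h)
    · exact le_max_of_le_right ((hsle _ _).mpr h)
  let w : AbsoluteValue K ℝ :=
    { toFun := fun x => ‖s x‖
      map_mul' := hmul
      nonneg' := fun x => norm_nonneg _
      eq_zero' := fun x => by
        rw [norm_eq_zero]
        constructor
        · intro h
          have h1 := hs x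
          rw [h, map_zero, map_zero] at h1
          exact (Valuation.zero_iff _).mp h1
        · intro h
          have h1 := hs x
          rw [h, map_zero] at h1
          have h2 := (Valuation.zero_iff _).mp h1.symm
          rw [h]
          exact (map_eq_zero (algebraMap C K)).mp h2
      add_le' := fun x y => (hmax x y).trans
        (max_le_add_of_nonneg (norm_nonneg _) (norm_nonneg _)) }
  refine ⟨w, hmax, ?_, ?_⟩
  · intro f
    change ‖s (algebraMap F K f)‖ = g f
    by_cases hf : f = 0
    · subst hf
      rw [map_zero, map_zero]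
      have h1 := hs 0
      rw [map_zero] at h1
      have h2 := (Valuation.zero_iff _).mp h1.symm
      rw [(map_eq_zero (algebraMap C K)).mp h2, norm_zero]
    · obtain ⟨c, hc⟩ := hval f
      rw [hc]
      apply heq
      rw [← hs]
      have hc0 : c ≠ 0 := by
        rintro rfl
        rw [norm_zero] at hc
        exact hf (g.eq_zero.mp hc)
      have hg1 : g (f / algebraMap C F c) = 1 := by
        rw [map_div₀, hext, hc, div_self (norm_ne_zero_iff.mpr hc0)]
      have h1 : V.valuation (algebraMap F K (f / algebraMap C F c)) = 1 := by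
        refine le_antisymm ((V.valuation_le_one_iff _).mpr (hV _ hg1.le)) ?_
        have h1 : V.valuation (algebraMap F K (f / algebraMap C F c)⁻¹) ≤ 1 := by
          refine (V.valuation_le_one_iff _).mpr (hV _ ?_)
          rw [map_inv₀, hg1, inv_one]
        rw [map_inv₀, map_inv₀] at h1
        have h2 : V.valuation (algebraMap F K (f / algebraMap C F c)) ≠ 0 := by
          rw [Valuation.ne_zero_iff]
          simpa using ⟨hf, hc0⟩
        exact (inv_le_one₀ (zero_lt_iff.mpr h2)).mp h1
      rw [map_div₀, map_div₀, ← IsScalarTower.algebraMap_apply C F K] at h1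
      have h3 : V.valuation (algebraMap C K c) ≠ 0 := by
        rw [Valuation.ne_zero_iff]
        simpa using hc0
      rwa [div_eq_one_iff_eq h3] at h1
  · intro x
    change ‖s x‖ ≤ 1 ↔ _
    rw [← hone, ← hs, ValuationSubring.valuation_le_one_iff]

/-- **integral closure of the unit ball**: an element of `K` which is bounded by one for all
extensions of `g` is integral over the unit ball of `g` -/
theorem isIntegral_of_forall_le [Algebra.IsAlgebraic F K] (g : AbsoluteValue F ℝ)
    (hg : IsNonarchimedean g) (hext : ∀ c : C, g (algebraMap C F c) = ‖c‖)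
    (hval : ∀ f : F, ∃ c : C, g f = ‖c‖) (x : K)
    (hx : ∀ w : AbsoluteValue K ℝ, IsNonarchimedean w → (∀ f : F, w (algebraMap F K f) = g f) →
      w x ≤ 1) : IsIntegral (ball g hg) x := by
  have h1 : x ∈ (⨅ V : {V : ValuationSubring K //
      ((ball g hg).map (algebraMap F K) : Set K) ⊆ V.toSubring}, V.1.toSubring) := by
    rw [Subring.mem_iInf]
    rintro ⟨V, hV⟩
    change x ∈ V
    by_contra hxV
    have hV' : ∀ f : F, g f ≤ 1 → algebraMap F K f ∈ V := fun f hf =>
      hV (Subring.mem_map.mpr ⟨f, hf, rfl⟩)
    obtain ⟨w, hw1, hw2, hw3⟩ := exists_abs_of_valuationSubring g hext hval V hV' ⟨x, hxV⟩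
    exact hxV ((hw3 x).mp (hx w hw1 hw2))
  rw [iInf_valuationSubring_superset, Subring.closure_eq] at h1
  have h2 : IsIntegral ((ball g hg).map (algebraMap F K)) x := h1
  let e := (ball g hg).equivMapOfInjective (algebraMap F K) (algebraMap F K).injective
  exact IsIntegral.map_of_comp_eq (T := ball g hg) (e.symm : _ →+* ball g hg) (RingHom.id K) (by
    ext y
    obtain ⟨z, rfl⟩ := e.surjective y
    simp only [RingHom.comp_apply, RingHom.coe_coe, RingEquiv.symm_apply_apply, RingHom.id_apply]
    rfl) h2

/-- the unit ball as a valuation subring -/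
def ballV (g : AbsoluteValue F ℝ) (hg : IsNonarchimedean g) : ValuationSubring F where
  toSubring := ball g hg
  mem_or_inv_mem' f := by
    by_cases h : g f ≤ 1
    · exact Or.inl h
    · right
      change g f⁻¹ ≤ 1
      rw [map_inv₀]
      exact inv_le_one_of_one_le₀ (not_le.mp h).le

instance isFractionRing_ball (g : AbsoluteValue F ℝ) (hg : IsNonarchimedean g) :
    IsFractionRing (ball g hg) F :=
  inferInstanceAs (IsFractionRing (ballV g hg) F)

instance isIntegrallyClosed_ball (g : AbsoluteValue F ℝ) (hg : IsNonarchimedean g) :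
    IsIntegrallyClosed (ball g hg) :=
  inferInstanceAs (IsIntegrallyClosed (ballV g hg))

/-- the minimal polynomial of such an element has coefficients in the unit ball -/
theorem minpoly_coeff_le [Algebra.IsAlgebraic F K] (g : AbsoluteValue F ℝ)
    (hg : IsNonarchimedean g) (hext : ∀ c : C, g (algebraMap C F c) = ‖c‖)
    (hval : ∀ f : F, ∃ c : C, g f = ‖c‖) (x : K)
    (hx : ∀ w : AbsoluteValue K ℝ, IsNonarchimedean w → (∀ f : F, w (algebraMap F K f) = g f) →
      w x ≤ 1) (k : ℕ) : g ((minpoly F x).coeff k) ≤ 1 := by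
  have h1 := isIntegral_of_forall_le g hg hext hval x hx
  rw [minpoly.isIntegrallyClosed_eq_field_fractions' F h1, Polynomial.coeff_map]
  exact ((minpoly (ball g hg) x).coeff k).2

/-- existence of an extension -/
theorem exists_ext [Algebra.IsAlgebraic F K] (g : AbsoluteValue F ℝ)
    (hg : IsNonarchimedean g) (hext : ∀ c : C, g (algebraMap C F c) = ‖c‖)
    (hval : ∀ f : F, ∃ c : C, g f = ‖c‖) (hnt : ∃ f : F, 1 < g f) :
    ∃ w : AbsoluteValue K ℝ, IsNonarchimedean w ∧ ∀ f : F, w (algebraMap F K f) = g f := by
  by_contra hcon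
  push Not at hcon
  obtain ⟨f, hf⟩ := hnt
  have h1 := isIntegral_of_forall_le (K := K) g hg hext hval (algebraMap F K f)
    (fun w hw hwg => by obtain ⟨f', hf'⟩ := hcon w hw; exact absurd (hwg f') hf')
  have h2 : IsIntegral (ball g hg) f :=
    (isIntegral_algebraMap_iff (algebraMap F K).injective).mp h1
  have h3 := IsIntegrallyClosed.isIntegral_iff.mp h2
  obtain ⟨y, hy⟩ := h3
  have : g f ≤ 1 := by rw [← hy]; exact y.2
  linarith

/-- values of an extension are values of constants -/
theorem exists_norm_eq_of_ext [Algebra.IsAlgebraic F K] (g : AbsoluteValue F ℝ)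
    (hext : ∀ c : C, g (algebraMap C F c) = ‖c‖)
    (hval : ∀ f : F, ∃ c : C, g f = ‖c‖) (w : AbsoluteValue K ℝ) (hw : IsNonarchimedean w)
    (hwg : ∀ f : F, w (algebraMap F K f) = g f) (x : K) : ∃ c : C, w x = ‖c‖ := by
  by_cases hx : x = 0
  · exact ⟨0, by simp [hx]⟩
  have hV : ∀ f : F, g f ≤ 1 → algebraMap F K f ∈ ballV w hw := fun f hf => by
    change w _ ≤ 1
    rw [hwg]; exact hf
  obtain ⟨c, hc0, hc⟩ := exists_const_mul g hext hval (ballV w hw) hV x hx
  refine ⟨c, ?_⟩
  have hvc : (ballV w hw).valuation (algebraMap C K c) ≠ 0 := by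
    rw [Valuation.ne_zero_iff]; simpa using hc0
  have hwc : w (algebraMap C K c) = ‖c‖ := by
    rw [IsScalarTower.algebraMap_apply C F K, hwg, hext]
  have h0 : w (algebraMap C K c) ≠ 0 := by
    rw [hwc]; exact norm_ne_zero_iff.mpr hc0
  have h1 : (ballV w hw).valuation (x / algebraMap C K c) ≤ 1 := by
    rw [map_div₀, hc, div_self hvc]
  have h2 : (ballV w hw).valuation (algebraMap C K c / x) ≤ 1 := by
    rw [map_div₀, hc, div_self hvc]
  rw [ValuationSubring.valuation_le_one_iff] at h1 h2
  have h1' : w (x / algebraMap C K c) ≤ 1 := h1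
  have h2' : w (algebraMap C K c / x) ≤ 1 := h2
  rw [map_div₀] at h1' h2'
  have hx0 : 0 < w x := w.pos hx
  have hc0' : 0 < w (algebraMap C K c) := lt_of_le_of_ne (w.nonneg _) (Ne.symm h0)
  rw [div_le_one₀ hc0'] at h1'
  rw [div_le_one₀ hx0] at h2'
  rw [← hwc]
  exact le_antisymm h1' h2'

end P025H458
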