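import Vale.Agent.P025.R2.H746.Defs
import Vale.Agent.P025.R2.H458.Ext

/-!
Extensions of the Gauss norm by valuation rings, in element form (P025, blueprint (7.1) (b)).
-/

namespace P025H458

open Polynomial IntermediateField P025H373 P025H746

variable {C K : Type*} [NormedField C] [IsUltrametricDist C] [IsAlgClosed C]
  [Field K] [Algebra C K]

section alg

variable (T : K) (hT : Transcendental C T)

/-- `K` as an algebra over `C(t)` by `t ↦ T` -/
@[reducible] noncomputable def algT : Algebra (RatFunc C) K :=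
  ((algebraMap C⟮T⟯ K).comp
    (RatFunc.algEquivOfTranscendental T hT : RatFunc C →+* C⟮T⟯)).toAlgebra

theorem algT_apply (f : RatFunc C) :
    letI := algT T hT
    algebraMap (RatFunc C) K f = aeval T f.num / aeval T f.denom :=
  RatFunc.algEquivOfTranscendental_apply T hT f

theorem algT_poly (P : C[X]) :
    letI := algT T hT
    algebraMap (RatFunc C) K (algebraMap C[X] (RatFunc C) P) = aeval T P := by
  change algebraMap C⟮T⟯ K (RatFunc.algEquivOfTranscendental T hT (algebraMap C[X] (RatFunc C) P)) =
    aeval T P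
  rw [RatFunc.algEquivOfTranscendental_algebraMap]
  rw [← Polynomial.aeval_algebraMap_apply]
  rfl

theorem algT_tower :
    letI := algT T hT
    IsScalarTower C (RatFunc C) K := by
  let _ := algT T hT
  refine IsScalarTower.of_algebraMap_eq fun c => ?_
  have h := algT_poly T hT (Polynomial.C c)
  rw [aeval_C] at h
  rw [← h]
  rfl

theorem algT_algebraic [Algebra.IsAlgebraic C⟮T⟯ K] :
    letI := algT T hT
    Algebra.IsAlgebraic (RatFunc C) K := by
  let _ := algT T hT
  refine ⟨fun x => ?_⟩
  have h := Algebra.IsAlgebraic.isAlgebraic (R := C⟮T⟯) x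
  exact IsAlgebraic.of_ringHom_of_comp_eq (RatFunc.algEquivOfTranscendental T hT : RatFunc C →+* C⟮T⟯)
    (RingHom.id K) h (RatFunc.algEquivOfTranscendental T hT).surjective Function.injective_id rfl

end alg

theorem gauss_const (c : C) : gauss C (algebraMap C (RatFunc C) c) = ‖c‖ := by
  have := gauss_poly (Polynomial.C c)
  rwa [gp_C] at this

theorem gauss_val (f : RatFunc C) : ∃ c : C, gauss C f = ‖c‖ := by
  obtain ⟨i, hi⟩ := exists_coeff_eq f.num
  obtain ⟨j, hj⟩ := exists_coeff_eq f.denom
  refine ⟨f.num.coeff i / f.denom.coeff j, ?_⟩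
  rw [norm_div, hi, hj, ← gauss_div, RatFunc.num_div_denom]

variable {T : K}

theorem exists_NV [Algebra.IsAlgebraic C⟮T⟯ K] (hT : Transcendental C T) (V : ValuationSubring K)
    (hV : ∀ P Q : C[X], Q ≠ 0 → gp P ≤ gp Q → aeval T P / aeval T Q ∈ V) (hne : V ≠ ⊤) :
    ∃ w : NV C K, w.OverG T ∧ w.ring = V := by
  let _ := algT T hT
  have := algT_tower T hT
  have := algT_algebraic T hT
  have hne' : ∃ x : K, x ∉ V := by
    by_contra hcon
    push Not at hcon
    exact hne (eq_top_iff.mpr fun x _ => hcon x)
  have hV' : ∀ f : RatFunc C, gauss C f ≤ 1 → algebraMap (RatFunc C) K f ∈ V := by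
    intro f hf
    rw [algT_apply T hT f]
    refine hV _ _ f.denom_ne_zero ?_
    rw [← RatFunc.num_div_denom f, gauss_div] at hf
    exact (div_le_one₀ (lt_of_le_of_ne (gp_nonneg _)
      (fun h => f.denom_ne_zero (gp_eq_zero.mp h.symm)))).mp hf
  obtain ⟨w, hw1, hw2, hw3⟩ := exists_abs_of_valuationSubring (K := K) (gauss C) gauss_const
    gauss_val V hV' hne'
  refine ⟨⟨w, hw1, fun c => ?_⟩, fun P => ?_, ?_⟩
  · rw [IsScalarTower.algebraMap_apply C (RatFunc C) K, hw2, gauss_const]
  · have h := hw2 (algebraMap C[X] (RatFunc C) P)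
    rw [algT_poly T hT P, gauss_poly] at h
    exact h
  · ext x
    exact hw3 x

/-- there is an extension of the Gauss norm -/
theorem exists_over [Algebra.IsAlgebraic C⟮T⟯ K] (hT : Transcendental C T)
    (hnt : ∃ c : C, 1 < ‖c‖) : ∃ w : NV C K, w.OverG T := by
  let _ := algT T hT
  have := algT_tower T hT
  have := algT_algebraic T hT
  obtain ⟨c, hc⟩ := hnt
  obtain ⟨w, hw1, hw2⟩ := exists_ext (K := K) (gauss C) gauss_na gauss_const gauss_val
    ⟨algebraMap C (RatFunc C) c, by rw [gauss_const]; exact hc⟩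
  refine ⟨⟨w, hw1, fun c => ?_⟩, fun P => ?_⟩
  · rw [IsScalarTower.algebraMap_apply C (RatFunc C) K, hw2, gauss_const]
  · have h := hw2 (algebraMap C[X] (RatFunc C) P)
    rw [algT_poly T hT P, gauss_poly] at h
    exact h

/-- the values of an extension of the Gauss norm are values of constants -/
theorem exists_norm_eq_of_overG [Algebra.IsAlgebraic C⟮T⟯ K] (hT : Transcendental C T)
    (w : NV C K) (hw : w.OverG T) (x : K) : ∃ c : C, w x = ‖c‖ := by
  let _ := algT T hT
  have := algT_tower T hT
  have := algT_algebraic T hT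
  refine exists_norm_eq_of_ext (gauss C) gauss_const gauss_val w.av w.na (fun f => ?_) x
  rw [algT_apply T hT f, map_div₀]
  have h1 : w.av (aeval T f.num) = gp f.num := hw _
  have h2 : w.av (aeval T f.denom) = gp f.denom := hw _
  rw [h1, h2, ← gauss_div, RatFunc.num_div_denom]

theorem exists_monic [Algebra.IsAlgebraic C⟮T⟯ K] (hT : Transcendental C T) {x : K}
    (h1 : IsIntegral (Algebra.adjoin C {T}) x) (h2 : ∀ w : NV C K, w.OverG T → w x ≤ 1) :
    ∃ p : C[X][X], p.Monic ∧ (∀ i, gp (p.coeff i) ≤ 1) ∧
      Polynomial.eval₂ (Polynomial.aeval T : C[X] →ₐ[C] K).toRingHom x p = 0 := by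
  let _ := algT T hT
  have := algT_tower T hT
  have := algT_algebraic T hT
  let _ : Algebra C[X] K := (Polynomial.aeval T : C[X] →ₐ[C] K).toRingHom.toAlgebra
  have : IsScalarTower C[X] (RatFunc C) K :=
    IsScalarTower.of_algebraMap_eq fun P => (algT_poly T hT P).symm
  have h3 : IsIntegral C[X] x := by
    refine IsIntegral.map_of_comp_eq (T := C[X])
      ((Polynomial.algEquivOfTranscendental C T hT).symm : Algebra.adjoin C {T} →+* C[X])
      (RingHom.id K) ?_ h1
    ext y
    obtain ⟨z, rfl⟩ := (Polynomial.algEquivOfTranscendental C T hT).surjective y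
    simp only [RingHom.comp_apply, RingHom.coe_coe, AlgEquiv.symm_apply_apply, RingHom.id_apply]
    change aeval T z = (((Polynomial.algEquivOfTranscendental C T hT) z : Algebra.adjoin C {T}) : K)
    rw [Polynomial.algEquivOfTranscendental_apply]
    have := Polynomial.aeval_algebraMap_apply K
      (⟨T, Algebra.self_mem_adjoin_singleton C T⟩ : Algebra.adjoin C {T}) z
    exact this
  refine ⟨minpoly C[X] x, minpoly.monic h3, fun i => ?_, minpoly.aeval C[X] x⟩
  have h4 := minpoly_coeff_le (K := K) (gauss C) gauss_na gauss_const gauss_val x (by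
    intro w hw hwg
    refine h2 ⟨w, hw, fun c => ?_⟩ fun P => ?_
    · rw [IsScalarTower.algebraMap_apply C (RatFunc C) K, hwg, gauss_const]
    · have h := hwg (algebraMap C[X] (RatFunc C) P)
      rw [algT_poly T hT P, gauss_poly] at h
      exact h) i
  rw [minpoly.isIntegrallyClosed_eq_field_fractions' (RatFunc C) h3, Polynomial.coeff_map,
    gauss_poly] at h4
  exact h4

end P025H458
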