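import Vale.Agent.P025.R2.H816.J02
import Vale.Agent.P025.R2.H458.Val

/-!
Reduction of Riemann-Roch spaces `L(n (T)_∞)` (P025, blueprint (7.1) (c)).
-/

namespace P025H458

open Polynomial IntermediateField P025H373 P025H746 Vale.Agent.P019P

/-! ### integrality over `C[T]` from places -/

theorem isIntegral_adjoin_of_places {C K : Type*} [Field C] [Field K] [Algebra C K] {T x : K}
    (h : ∀ P : Plk C K, T ∈ P.1 → x ∈ P.1) : IsIntegral (Algebra.adjoin C {T}) x := by
  have h1 : x ∈ (⨅ V : {V : ValuationSubring K //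
      ((Algebra.adjoin C {T}).toSubring : Set K) ⊆ V.toSubring}, V.1.toSubring) := by
    rw [Subring.mem_iInf]
    rintro ⟨V, hV⟩
    change x ∈ V
    by_cases hVt : V = ⊤
    · rw [hVt]; exact ValuationSubring.mem_top x
    · refine h ⟨V, fun a => hV ?_, hVt⟩ (hV (Algebra.self_mem_adjoin_singleton C T))
      exact Subalgebra.algebraMap_mem _ a
  rw [iInf_valuationSubring_superset, Subring.closure_eq] at h1
  exact h1

/-! ### the Gauss norm for `T⁻¹` -/

section inv

variable {C K : Type*} [NormedField C] [IsUltrametricDist C] [Field K] [Algebra C K] {T : K}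

theorem gp_reverse (P : C[X]) : gp P.reverse = gp P := by
  refine le_antisymm (gp_le_iff.mpr fun i => ?_) (gp_le_iff.mpr fun i => ?_)
  · rw [coeff_reverse]
    exact norm_coeff_le _ _
  · have h := norm_coeff_le P.reverse (revAt P.natDegree i)
    rwa [coeff_reverse, revAt_invol] at h

theorem overG_norm {w : NV C K} (hw : w.OverG T) : w T = 1 := by
  have := hw X
  rwa [aeval_X, gp_X] at this

theorem overG_ne_zero {w : NV C K} (hw : w.OverG T) : T ≠ 0 := by
  have hT1 := overG_norm hw
  rintro rfl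
  rw [map_zero] at hT1
  exact zero_ne_one hT1

theorem overG_inv {w : NV C K} (hw : w.OverG T) : w.OverG T⁻¹ := by
  intro P
  have hT1 := overG_norm hw
  have hT0 := overG_ne_zero hw
  let _ : Invertible (T⁻¹) := invertibleOfNonzero (inv_ne_zero hT0)
  have h1 := eval₂_reverse_mul_pow (algebraMap C K) (T⁻¹) P
  rw [invOf_eq_inv, inv_inv] at h1
  rw [aeval_def, ← h1, map_mul, map_pow, map_inv₀, hT1, inv_one, one_pow, mul_one, ← aeval_def,
    hw, gp_reverse]

theorem overG_inv_iff {w : NV C K} : w.OverG T⁻¹ ↔ w.OverG T :=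
  ⟨fun h => by simpa using overG_inv h, overG_inv⟩

end inv

/-! ### integral equations reduce -/

section red

variable {C K : Type*} [NormedField C] [IsUltrametricDist C] [Field K] [Algebra C K] {T : K}

/-- a root of a monic polynomial with coefficients in a valuation ring is in it -/
theorem mem_of_monic {k : Type*} [Field k] (O : ValuationSubring k) {y : k} {q : k[X]}
    (hq : q.Monic) (hc : ∀ i, q.coeff i ∈ O) (h0 : q.eval y = 0) : y ∈ O := by
  have h1 : ∃ r : O[X], r.map O.subtype = q ∧ r.Monic := by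
    have hl : q ∈ Polynomial.lifts O.subtype := by
      rw [Polynomial.lifts_iff_coeff_lifts]
      intro i
      exact ⟨⟨q.coeff i, hc i⟩, rfl⟩
    obtain ⟨r, hr1, -, hr2⟩ := Polynomial.lifts_and_degree_eq_and_monic hl hq
    exact ⟨r, hr1, hr2⟩
  obtain ⟨r, hr, hrm⟩ := h1
  have h2 : IsIntegral O y := by
    refine ⟨r, hrm, ?_⟩
    rw [← hr, eval_map] at h0
    exact h0
  obtain ⟨z, hz⟩ := IsIntegrallyClosed.isIntegral_iff.mp h2
  rw [← hz]
  exact z.2

/-- an integral equation over `C[T]` with coefficients of Gauss norm at most one reduces -/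
theorem red_mem_of_monic {w : NV C K} (hT : w T ≤ 1) {x : K} (hx : w x ≤ 1) {p : C[X][X]}
    (hp : p.Monic) (hc : ∀ i, gp (p.coeff i) ≤ 1)
    (h0 : Polynomial.eval₂ (Polynomial.aeval T : C[X] →ₐ[C] K).toRingHom x p = 0)
    (P : Plk (kC C) (kap w)) (hP : w.red T ∈ P.1) : w.red x ∈ P.1 := by
  classical
  set q : (kap w)[X] := ∑ i ∈ Finset.range (p.natDegree + 1),
    monomial i (aeval (w.red T) (pred (p.coeff i))) with hq
  have hcoeff : ∀ i, q.coeff i = if i < p.natDegree + 1 then
      aeval (w.red T) (pred (p.coeff i)) else 0 := by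
    intro i
    rw [hq, finsetSum_coeff]
    simp only [coeff_monomial, Finset.sum_ite_eq', Finset.mem_range]
  have hone : pred (1 : C[X]) = 1 := by
    ext i
    rw [coeff_pred, coeff_one, coeff_one]
    split_ifs <;> simp
  have htop : q.coeff p.natDegree = 1 := by
    rw [hcoeff, if_pos (Nat.lt_succ_self _), hp.coeff_natDegree, hone, map_one]
  have hdeg : q.natDegree ≤ p.natDegree := by
    rw [natDegree_le_iff_coeff_eq_zero]
    intro i hi
    rw [hcoeff, if_neg (by omega)]
  have hmonic : q.Monic := monic_of_natDegree_le_of_coeff_eq_one _ hdeg htop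
  refine mem_of_monic P.1 hmonic (fun i => ?_) ?_
  · rw [hcoeff]
    split_ifs
    · rw [aeval_eq_sum_range]
      refine sum_mem fun j _ => ?_
      rw [Algebra.smul_def]
      exact mul_mem (P.2.1 _) (pow_mem hP _)
    · exact zero_mem _
  · rw [hq, eval_finsetSum]
    simp only [eval_monomial]
    have h1 : ∀ i, w (aeval T (p.coeff i)) ≤ 1 := fun i => NV.aeval_le hT (hc i)
    have h2 : w.red (∑ i ∈ Finset.range (p.natDegree + 1), aeval T (p.coeff i) * x ^ i) =
        ∑ i ∈ Finset.range (p.natDegree + 1),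
          aeval (w.red T) (pred (p.coeff i)) * w.red x ^ i := by
      rw [NV.red_sum (fun i _ => NV.mul_le_one (h1 i) (NV.pow_le_one' hx i))]
      refine Finset.sum_congr rfl fun i _ => ?_
      rw [NV.red_mul (h1 i) (NV.pow_le_one' hx i), NV.red_aeval hT (hc i), NV.red_pow hx]
    rw [← h2]
    have h3 : ∑ i ∈ Finset.range (p.natDegree + 1), aeval T (p.coeff i) * x ^ i = 0 := by
      rw [eval₂_eq_sum_range] at h0
      exact h0
    rw [h3, NV.red_zero]

end red

section main

variable {C K : Type*} [NormedField C] [IsUltrametricDist C] [IsAlgClosed C]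
  [Field K] [Algebra C K] {T : K}

theorem red_mem [Algebra.IsAlgebraic C⟮T⟯ K] (hT : Transcendental C T) {x : K}
    (h1 : ∀ P : Plk C K, T ∈ P.1 → x ∈ P.1) (h2 : ∀ w : NV C K, w.OverG T → w x ≤ 1)
    {w : NV C K} (hw : w.OverG T) (P : Plk (kC C) (kap w)) (hP : w.red T ∈ P.1) :
    w.red x ∈ P.1 := by
  obtain ⟨p, hp1, hp2, hp3⟩ := exists_monic hT (isIntegral_adjoin_of_places h1) h2
  exact red_mem_of_monic (overG_norm hw).le (h2 w hw) hp1 hp2 hp3 P hP

/-- **reduction of `L(n (T)_∞)`** -/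
theorem hred [CFF C K] (hT : ∀ a : C, T ≠ algebraMap C K a) {w : NV C K}
    [CFF (kC C) (kap w)] (hw : w.OverG T) (n : ℕ) {x : K} (hx : x ∈ LL C (n • pol C T))
    (h2 : ∀ w : NV C K, w.OverG T → w x ≤ 1) :
    w.red x ∈ LL (kC C) (n • pol (kC C) (w.red T)) := by
  obtain ⟨htr, hfd⟩ := finite_of_notMem hT
  obtain ⟨htr', hfd'⟩ := finite_of_notMem (nc_inv hT)
  have hT0 : T ≠ 0 := overG_ne_zero hw
  have hT1 : w T = 1 := overG_norm hw
  have hint : ∀ (P : Plk C K) (z : K), z ∈ P.1 ↔ z = 0 ∨ 0 ≤ ord P z := fun P z => mem_iff_ord P z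
  by_cases hy : w.red x = 0
  · rw [hy]; exact zero_mem _
  rw [mem_LL] at hx ⊢
  right
  have hx0 : x ≠ 0 := by
    rintro rfl
    exact hy NV.red_zero
  have hx' : ∀ P : Plk C K, -((n : ℤ) * max 0 (-ord P T)) ≤ ord P x := by
    intro P
    have h := (hx.resolve_left hx0) P
    rwa [Finsupp.smul_apply, pol_apply, nsmul_eq_mul] at h
  intro P
  rw [Finsupp.smul_apply, pol_apply, nsmul_eq_mul]
  by_cases hP : w.red T ∈ P.1
  · -- `T` regular at `P`
    have h3 : w.red x ∈ P.1 := by
      refine red_mem htr (fun Q hQ => ?_) h2 hw P hP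
      rw [mem_iff_ord] at hQ ⊢
      right
      have h4 : 0 ≤ ord Q T := hQ.resolve_left hT0
      have h5 := hx' Q
      rw [max_eq_left (by omega)] at h5
      simpa using h5
    rw [mem_iff_ord] at h3
    have h4 := h3.resolve_left hy
    have h5 : (0 : ℤ) ≤ (n : ℤ) * max 0 (-ord P (w.red T)) :=
      mul_nonneg (Int.natCast_nonneg n) (le_max_left _ _)
    omega
  · -- `T⁻¹` regular at `P`
    have hredT0 : w.red T ≠ 0 := NV.red_ne_zero hT1
    have hinv : w.red T⁻¹ = (w.red T)⁻¹ := NV.red_inv hT1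
    have hwinv : w T⁻¹ ≤ 1 := by rw [map_inv₀, hT1, inv_one]
    have hPinv : w.red T⁻¹ ∈ P.1 := by
      rw [hinv]
      exact (P.1.mem_or_inv_mem _).resolve_left hP
    have hw' : ∀ v : NV C K, v.OverG T⁻¹ → v (x * (T⁻¹) ^ n) ≤ 1 := by
      intro v hv
      have hv' := overG_inv_iff.mp hv
      rw [map_mul, map_pow, map_inv₀, overG_norm hv', inv_one, one_pow, mul_one]
      exact h2 v hv'
    have h3 : w.red (x * (T⁻¹) ^ n) ∈ P.1 := by
      refine red_mem htr' (fun Q hQ => ?_) hw' (overG_inv hw) P hPinv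
      rw [mem_iff_ord] at hQ ⊢
      right
      have h4 : 0 ≤ ord Q T⁻¹ := hQ.resolve_left (inv_ne_zero hT0)
      rw [ord_inv] at h4
      have h5 := hx' Q
      rw [max_eq_right h4] at h5
      rw [ord_mul Q hx0 (pow_ne_zero _ (inv_ne_zero hT0)), ord_pow, ord_inv]
      linarith
    rw [NV.red_mul (h2 w hw) (NV.pow_le_one' hwinv n), NV.red_pow hwinv, hinv, mem_iff_ord] at h3
    have h4 := h3.resolve_left (mul_ne_zero hy (pow_ne_zero _ (inv_ne_zero hredT0)))
    rw [ord_mul P hy (pow_ne_zero _ (inv_ne_zero hredT0)), ord_pow, ord_inv] at h4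
    have h5 : -ord P (w.red T) ≤ max 0 (-ord P (w.red T)) := le_max_right _ _
    have h6 : (n : ℤ) * -ord P (w.red T) ≤ (n : ℤ) * max 0 (-ord P (w.red T)) :=
      mul_le_mul_of_nonneg_left h5 (Int.natCast_nonneg n)
    linarith

end main

end P025H458
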