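import Mathlib

/-!
Orthonormal bases over a spherically complete ultrametric field (P025, blueprint (7.1) (a)).
-/

namespace P025H458

open Finset

variable {C : Type*} [NormedField C]

/-- spherical completeness, for arbitrary families (given as sets) of pairwise meeting discs -/
def Sph (C : Type*) [NormedField C] : Prop :=
  ∀ S : Set (C × ℝ), (∀ p ∈ S, ∀ q ∈ S, p.2 ≤ q.2 → ‖p.1 - q.1‖ ≤ q.2) →
    ∃ x : C, ∀ p ∈ S, ‖x - p.1‖ ≤ p.2

theorem Sph.of_balls.{u} {C : Type u} [NormedField C]
    (h : ∀ {ι : Type u} (a : ι → C) (r : ι → ℝ), (∀ i j, r i ≤ r j → ‖a i - a j‖ ≤ r j) →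
      ∃ x, ∀ i, ‖x - a i‖ ≤ r i) : Sph C := by
  intro S hS
  obtain ⟨x, hx⟩ := h (ι := S) (fun p => p.1.1) (fun p => p.1.2)
    (fun i j hij => hS i.1 i.2 j.1 j.2 hij)
  exact ⟨x, fun p hp => hx ⟨p, hp⟩⟩

/-- an absolutely homogeneous ultrametric norm on a vector space, as a bare function -/
structure UNorm (C : Type*) [NormedField C] {V : Type*} [AddCommGroup V] [Module C V]
    (N : V → ℝ) : Prop where
  add_le : ∀ v w, N (v + w) ≤ max (N v) (N w)
  smul : ∀ (c : C) v, N (c • v) = ‖c‖ * N v
  eq_zero : ∀ v, N v = 0 → v = 0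

namespace UNorm

variable {V : Type*} [AddCommGroup V] [Module C V] {N : V → ℝ}

theorem zero (h : UNorm C N) : N 0 = 0 := by
  have := h.smul 0 0
  simpa using this

theorem neg (h : UNorm C N) (v : V) : N (-v) = N v := by
  have := h.smul (-1) v
  simpa using this

theorem nonneg (h : UNorm C N) (v : V) : 0 ≤ N v := by
  have h1 := h.add_le v (-v)
  rw [add_neg_cancel, h.zero, h.neg, max_self] at h1
  exact h1

theorem sub_le (h : UNorm C N) (v w : V) : N (v - w) ≤ max (N v) (N w) := by
  have h1 := h.add_le v (-w)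
  rwa [h.neg, ← sub_eq_add_neg] at h1

theorem sub_comm (h : UNorm C N) (v w : V) : N (v - w) = N (w - v) := by
  rw [← h.neg, neg_sub]

theorem sum_le (h : UNorm C N) {ι : Type*} (s : Finset ι) (f : ι → V) {r : ℝ} (hr : 0 ≤ r)
    (hf : ∀ i ∈ s, N (f i) ≤ r) : N (∑ i ∈ s, f i) ≤ r := by
  classical
  induction s using Finset.induction_on with
  | empty => simpa [h.zero] using hr
  | insert a s ha ih =>
    rw [Finset.sum_insert ha]
    refine (h.add_le _ _).trans (max_le (hf a (Finset.mem_insert_self _ _)) (ih ?_))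
    intro i hi
    exact hf i (Finset.mem_insert_of_mem hi)

/-- restriction to a submodule -/
theorem restrict (h : UNorm C N) (W : Submodule C V) : UNorm C (fun w : W => N (w : V)) where
  add_le v w := h.add_le v w
  smul c v := h.smul c v
  eq_zero v hv := by
    have := h.eq_zero (v : V) hv
    exact Subtype.ext this

/-- pull back along an injective linear map -/
theorem comap (h : UNorm C N) {W : Type*} [AddCommGroup W] [Module C W] (f : W →ₗ[C] V)
    (hf : Function.Injective f) : UNorm C (fun w : W => N (f w)) where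
  add_le v w := by
    simpa using h.add_le (f v) (f w)
  smul c v := by simpa using h.smul c (f v)
  eq_zero v hv := by
    have h1 := h.eq_zero (f v) hv
    exact hf (by rw [h1, map_zero])

end UNorm

/-- a family is orthonormal if `N (∑ c i • e i) = max ‖c i‖` -/
structure ON (C : Type*) [NormedField C] {V : Type*} [AddCommGroup V] [Module C V]
    (N : V → ℝ) {ι : Type*} [Fintype ι] (e : ι → V) : Prop where
  le : ∀ (c : ι → C) (i : ι), ‖c i‖ ≤ N (∑ j, c j • e j)
  norm : ∀ i, N (e i) = 1

namespace ON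

variable {V : Type*} [AddCommGroup V] [Module C V] {N : V → ℝ} {ι : Type*} [Fintype ι] {e : ι → V}

theorem sum_le (h : UNorm C N) (he : ON C N e) (c : ι → C) {r : ℝ} (hr : 0 ≤ r)
    (hc : ∀ i, ‖c i‖ ≤ r) : N (∑ j, c j • e j) ≤ r := by
  refine h.sum_le _ _ hr ?_
  intro i _
  rw [h.smul, he.norm, mul_one]
  exact hc i

theorem sum_lt (h : UNorm C N) (he : ON C N e) (c : ι → C) {r : ℝ} (hr : 0 < r)
    (hc : ∀ i, ‖c i‖ < r) : N (∑ j, c j • e j) < r := by
  classical
  by_cases hι : Nonempty ι
  · obtain ⟨i, hi⟩ := Finite.exists_max (fun i => ‖c i‖)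
    exact lt_of_le_of_lt (he.sum_le h c (norm_nonneg (c i)) hi) (hc i)
  · have := not_nonempty_iff.mp hι
    simpa [h.zero] using hr

theorem linearIndependent (h : UNorm C N) (he : ON C N e) : LinearIndependent C e := by
  rw [Fintype.linearIndependent_iff]
  intro g hg i
  have h1 := he.le g i
  rw [hg, h.zero] at h1
  simpa using le_antisymm h1 (norm_nonneg _)

/-- the span of an orthonormal family is spherically complete, hence the distance to it is
attained -/
theorem exists_nearest (hC : Sph C) (h : UNorm C N) (he : ON C N e) (v : V) :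
    ∃ x : ι → C, ∀ c : ι → C, N (v - ∑ j, x j • e j) ≤ N (v - ∑ j, c j • e j) := by
  classical
  have key : ∀ i : ι, ∃ x : C, ∀ c : ι → C, ‖x - c i‖ ≤ N (v - ∑ j, c j • e j) := by
    intro i
    obtain ⟨x, hx⟩ := hC (Set.range fun c : ι → C => (c i, N (v - ∑ j, c j • e j))) (by
      rintro _ ⟨c, rfl⟩ _ ⟨d, rfl⟩ hcd
      simp only at hcd ⊢
      have h1 := he.le (fun j => c j - d j) i
      refine h1.trans ?_
      have h2 : (∑ j, (c j - d j) • e j) = (v - ∑ j, d j • e j) - (v - ∑ j, c j • e j) := by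
        simp only [sub_smul, Finset.sum_sub_distrib]
        abel
      rw [h2]
      exact (h.sub_le _ _).trans (max_le le_rfl hcd))
    exact ⟨x, fun c => hx _ ⟨c, rfl⟩⟩
  choose x hx using key
  refine ⟨x, fun c => ?_⟩
  have h3 : v - ∑ j, x j • e j = (v - ∑ j, c j • e j) - ∑ j, (x j - c j) • e j := by
    simp only [sub_smul, Finset.sum_sub_distrib]
    abel
  rw [h3]
  refine (h.sub_le _ _).trans (max_le le_rfl ?_)
  exact he.sum_le h _ (h.nonneg _) (fun i => hx i c)

end ON

section extend

variable {V : Type*} [AddCommGroup V] [Module C V] {N : V → ℝ}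

/-- adding one vector to an orthonormal family -/
theorem ON.snoc (hC : Sph C) (hn : ∀ r : ℝ, 0 ≤ r → ∃ x : C, ‖x‖ = r) (h : UNorm C N)
    {k : ℕ} {e : Fin k → V} (he : ON C N e) {v : V} (hv : v ∉ Submodule.span C (Set.range e)) :
    ∃ f : V, f ∈ Submodule.span C (insert v (Set.range e)) ∧
      v ∈ Submodule.span C (insert f (Set.range e)) ∧ ON C N (Fin.snoc e f : Fin (k + 1) → V) := by
  classical
  obtain ⟨x, hx⟩ := he.exists_nearest hC h v
  set u := v - ∑ j, x j • e j with hu
  have hsx : ∀ c : Fin k → C, ∑ j, c j • e j ∈ Submodule.span C (Set.range e) := fun c =>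
    Submodule.sum_mem _ fun j _ => Submodule.smul_mem _ _ (Submodule.subset_span ⟨j, rfl⟩)
  have hu0 : N u ≠ 0 := by
    intro h0
    have := h.eq_zero u h0
    rw [hu, sub_eq_zero] at this
    exact hv (this ▸ hsx x)
  have hupos : 0 < N u := lt_of_le_of_ne (h.nonneg u) (Ne.symm hu0)
  obtain ⟨a, ha⟩ := hn (N u) (h.nonneg u)
  have ha0 : a ≠ 0 := by
    intro h0
    rw [h0, norm_zero] at ha
    exact hu0 ha.symm
  have hf1 : N (a⁻¹ • u) = 1 := by
    rw [h.smul, norm_inv, ha, inv_mul_cancel₀ hu0]
  -- distance from `f` to the span is one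
  have hdist : ∀ c : Fin k → C, 1 ≤ N (a⁻¹ • u + ∑ j, c j • e j) := by
    intro c
    have h1 := hx (fun j => x j - a * c j)
    have h2 : v - ∑ j, (x j - a * c j) • e j = a • (a⁻¹ • u + ∑ j, c j • e j) := by
      rw [smul_add, smul_smul, mul_inv_cancel₀ ha0, one_smul, Finset.smul_sum, hu]
      simp only [sub_smul, Finset.sum_sub_distrib, mul_smul]
      abel
    rw [h2, h.smul, ha] at h1
    by_contra hlt
    push Not at hlt
    have : N u * N (a⁻¹ • u + ∑ j, c j • e j) < N u * 1 := mul_lt_mul_of_pos_left hlt hupos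
    rw [mul_one] at this
    exact absurd h1 (not_le.mpr this)
  refine ⟨a⁻¹ • u, ?_, ?_, ?_, ?_⟩
  · refine Submodule.smul_mem _ _ (Submodule.sub_mem _ (Submodule.subset_span (by simp)) ?_)
    exact Submodule.span_mono (Set.subset_insert _ _) (hsx x)
  · have hv' : v = a • (a⁻¹ • u) + ∑ j, x j • e j := by
      rw [smul_smul, mul_inv_cancel₀ ha0, one_smul, hu]
      abel
    rw [hv']
    refine Submodule.add_mem _ (Submodule.smul_mem _ _ (Submodule.subset_span (by simp))) ?_
    exact Submodule.span_mono (Set.subset_insert _ _) (hsx x)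
  · intro c i
    rw [Fin.sum_univ_castSucc]
    simp only [Fin.snoc_castSucc, Fin.snoc_last]
    set w := ∑ j : Fin k, c j.castSucc • e j with hw
    set d := c (Fin.last k) with hd
    -- `|d| ≤ N (w + d • f)`
    have hdle : ‖d‖ ≤ N (w + d • (a⁻¹ • u)) := by
      by_cases hd0 : d = 0
      · rw [hd0, norm_zero]
        exact h.nonneg _
      · have h1 := hdist (fun j => d⁻¹ * c j.castSucc)
        have h2 : w + d • (a⁻¹ • u) = d • (a⁻¹ • u + ∑ j : Fin k, (d⁻¹ * c j.castSucc) • e j) := by
          rw [smul_add, Finset.smul_sum]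
          simp only [smul_smul]
          rw [add_comm, hw]
          congr 1
          refine Finset.sum_congr rfl fun j _ => ?_
          rw [← mul_assoc, mul_inv_cancel₀ hd0, one_mul]
        rw [h2, h.smul]
        exact le_mul_of_one_le_right (norm_nonneg _) h1
    refine Fin.lastCases ?_ (fun j => ?_) i
    · exact hdle
    · have h1 := he.le (fun j : Fin k => c j.castSucc) j
      refine h1.trans ?_
      have h2 : w = (w + d • (a⁻¹ • u)) - d • (a⁻¹ • u) := by abel
      calc N w = N ((w + d • (a⁻¹ • u)) - d • (a⁻¹ • u)) := by rw [← h2]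
        _ ≤ max (N (w + d • (a⁻¹ • u))) (N (d • (a⁻¹ • u))) := h.sub_le _ _
        _ ≤ N (w + d • (a⁻¹ • u)) := by
          refine max_le le_rfl ?_
          rw [h.smul, hf1, mul_one]
          exact hdle
  · intro i
    refine Fin.lastCases ?_ (fun j => ?_) i
    · simpa only [Fin.snoc_last] using hf1
    · simpa only [Fin.snoc_castSucc] using he.norm j

theorem ON.extend_aux [FiniteDimensional C V] (hC : Sph C)
    (hn : ∀ r : ℝ, 0 ≤ r → ∃ x : C, ‖x‖ = r) (h : UNorm C N) (m : ℕ) :
    ∀ {k : ℕ} {e : Fin k → V}, ON C N e → k + m = Module.finrank C V →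
    ∃ b : Fin (Module.finrank C V) → V, ON C N b ∧
      ∃ hk : k ≤ Module.finrank C V, ∀ i : Fin k, b (Fin.castLE hk i) = e i := by
  induction m with
  | zero =>
    intro k e he hk
    have hk' : k = Module.finrank C V := by omega
    subst hk'
    exact ⟨e, he, le_rfl, fun i => rfl⟩
  | succ m ih =>
    intro k e he hk
    have hne : Submodule.span C (Set.range e) ≠ ⊤ := by
      intro htop
      have h1 := finrank_range_le_card (R := C) (b := e)
      rw [Set.finrank, htop, finrank_top, Fintype.card_fin] at h1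
      omega
    obtain ⟨v, hv⟩ : ∃ v, v ∉ Submodule.span C (Set.range e) := by
      by_contra hcon
      push Not at hcon
      exact hne ((Submodule.eq_top_iff').mpr hcon)
    obtain ⟨f, -, -, hf⟩ := he.snoc hC hn h hv
    obtain ⟨b, hb, hk', hb'⟩ := ih hf (by omega)
    refine ⟨b, hb, by omega, fun i => ?_⟩
    have := hb' i.castSucc
    rw [Fin.snoc_castSucc] at this
    rw [← this]
    rfl

/-- every orthonormal family extends to an orthonormal basis -/
theorem ON.extend [FiniteDimensional C V] (hC : Sph C)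
    (hn : ∀ r : ℝ, 0 ≤ r → ∃ x : C, ‖x‖ = r) (h : UNorm C N) {k : ℕ} {e : Fin k → V}
    (he : ON C N e) :
    ∃ b : Module.Basis (Fin (Module.finrank C V)) C V, ON C N b ∧
      ∃ hk : k ≤ Module.finrank C V, ∀ i : Fin k, b (Fin.castLE hk i) = e i := by
  have hk : k ≤ Module.finrank C V := by
    have := (he.linearIndependent h).fintype_card_le_finrank
    simpa using this
  obtain ⟨b, hb, hk', hb'⟩ := ON.extend_aux hC hn h (Module.finrank C V - k) he (by omega)
  refine ⟨basisOfLinearIndependentOfCardEqFinrank' b (hb.linearIndependent h) (by simp), ?_, hk', ?_⟩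
  · simpa using hb
  · simpa using hb'

/-- existence of orthonormal bases -/
theorem exists_basis [FiniteDimensional C V] (hC : Sph C)
    (hn : ∀ r : ℝ, 0 ≤ r → ∃ x : C, ‖x‖ = r) (h : UNorm C N) :
    ∃ b : Module.Basis (Fin (Module.finrank C V)) C V, ON C N b := by
  obtain ⟨b, hb, -⟩ := ON.extend (k := 0) (e := Fin.elim0) hC hn h
    ⟨fun c i => Fin.elim0 i, fun i => Fin.elim0 i⟩
  exact ⟨b, hb⟩

/-- the orthonormal formula for a basis, in coordinates -/
theorem ON.repr_le [FiniteDimensional C V] {ι : Type*} [Fintype ι] (b : Module.Basis ι C V)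
    (hb : ON C N b) (v : V) (i : ι) : ‖b.repr v i‖ ≤ N v := by
  have := hb.le (fun i => b.repr v i) i
  rwa [b.sum_repr] at this

theorem ON.le_of_repr [FiniteDimensional C V] {ι : Type*} [Fintype ι] (h : UNorm C N)
    (b : Module.Basis ι C V) (hb : ON C N b) (v : V) {r : ℝ} (hr : 0 ≤ r)
    (hv : ∀ i, ‖b.repr v i‖ ≤ r) : N v ≤ r := by
  have := hb.sum_le h (fun i => b.repr v i) hr hv
  rwa [b.sum_repr] at this

end extend

end P025H458
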