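import Vale.Agent.P025.R2.H458.Ortho
import Vale.Agent.P025.R2.H458.Approx

/-!
Orthonormal bases of finite dimensional subspaces of a field for the maximum of finitely many
absolute values; abstract reduction inequality (P025, blueprint (7.1) (c)).
-/

namespace P025H458

variable {C : Type*} [NontriviallyNormedField C] {K : Type*} [Field K] [Algebra C K]

/-- the maximum of finitely many absolute values extending the norm of `C` is an ultrametric
`C`-norm -/
theorem unorm_sup {ι : Type*} [Finite ι] [Nonempty ι] (w : ι → AbsoluteValue K ℝ)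
    (hna : ∀ i, IsNonarchimedean (w i)) (hext : ∀ i (c : C), w i (algebraMap C K c) = ‖c‖) :
    UNorm C (fun x : K => ⨆ i, w i x) where
  add_le v u := by
    have hb : ∀ x : K, BddAbove (Set.range fun i => w i x) := fun x => Set.finite_range _ |>.bddAbove
    refine ciSup_le fun i => (hna i v u).trans (max_le_max (le_ciSup (hb v) i) (le_ciSup (hb u) i))
  smul c v := by
    simp only [Algebra.smul_def, map_mul, hext]
    rw [Real.mul_iSup_of_nonneg (norm_nonneg _)]
  eq_zero v hv := by
    obtain ⟨i⟩ := ‹Nonempty ι›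
    have hb : BddAbove (Set.range fun i => w i v) := Set.finite_range _ |>.bddAbove
    have h1 := le_ciSup hb i
    rw [hv] at h1
    exact (w i).eq_zero.mp (le_antisymm h1 ((w i).nonneg v))

/-- **reduction basis**: a finite dimensional subspace `V` has a basis `b` with `w i (b j) ≤ 1`
whose reductions are linearly independent in the product of the residue fields -/
theorem exists_red_basis (hC : Sph C) (hn : ∀ r : ℝ, 0 ≤ r → ∃ x : C, ‖x‖ = r)
    {ι : Type*} [Finite ι] [Nonempty ι] (w : ι → AbsoluteValue K ℝ)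
    (hna : ∀ i, IsNonarchimedean (w i)) (hext : ∀ i (c : C), w i (algebraMap C K c) = ‖c‖)
    (V : Submodule C K) [FiniteDimensional C V] :
    ∃ b : Module.Basis (Fin (Module.finrank C V)) C V, (∀ i j, w i (b j : K) ≤ 1) ∧
      (∀ (c : Fin (Module.finrank C V) → C) {r : ℝ}, (∀ i, w i (∑ j, c j • (b j : K)) ≤ r) →
        ∀ j, ‖c j‖ ≤ r) ∧
      (∀ (c : Fin (Module.finrank C V) → C) {r : ℝ}, (∀ i, w i (∑ j, c j • (b j : K)) < r) →
        ∀ j, ‖c j‖ < r) := by
  have hN := (unorm_sup w hna hext).restrict V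
  obtain ⟨b, hb⟩ := exists_basis hC hn hN
  have hbd : ∀ x : K, BddAbove (Set.range fun i => w i x) := fun x => Set.finite_range _ |>.bddAbove
  refine ⟨b, fun i j => ?_, fun c r hr j => ?_, fun c r hr j => ?_⟩
  · have := hb.norm j
    rw [← this]
    exact le_ciSup (hbd (b j : K)) i
  · have h1 := hb.le c j
    refine h1.trans (ciSup_le fun i => ?_)
    simpa using hr i
  · have h1 := hb.le c j
    refine h1.trans_lt ?_
    obtain ⟨i, hi⟩ := exists_eq_ciSup_of_finite (f := fun i => w i ((∑ j, c j • b j : V) : K))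
    rw [← hi]
    simpa using hr i

/-- abstract reduction inequality: `O ⊆ C` the unit ball, `red : unit ball → κ` its reduction, `M`
a `κ`-vector space, `ρ` an additive, semilinear reduction of the unit ball of `V`, whose kernel is
the open unit ball, with values in the finite dimensional subspace `L` -/
theorem finrank_le_of_red (hC : Sph C) (hn : ∀ r : ℝ, 0 ≤ r → ∃ x : C, ‖x‖ = r)
    {ι : Type*} [Finite ι] [Nonempty ι] (w : ι → AbsoluteValue K ℝ)
    (hna : ∀ i, IsNonarchimedean (w i)) (hext : ∀ i (c : C), w i (algebraMap C K c) = ‖c‖)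
    (V : Submodule C K) [FiniteDimensional C V]
    {κ : Type*} [Field κ] (red : C → κ) (hred : ∀ a : κ, ∃ c : C, ‖c‖ ≤ 1 ∧ red c = a)
    (hred0 : ∀ c : C, ‖c‖ < 1 → red c = 0)
    {M : Type*} [AddCommGroup M] [Module κ M] (L : Submodule κ M) [FiniteDimensional κ L]
    (ρ : K → M)
    (hρadd : ∀ x y : K, (∀ i, w i x ≤ 1) → (∀ i, w i y ≤ 1) → ρ (x + y) = ρ x + ρ y)
    (hρsmul : ∀ (c : C) (x : K), ‖c‖ ≤ 1 → (∀ i, w i x ≤ 1) → ρ (c • x) = red c • ρ x)
    (hρ0 : ∀ x : K, (∀ i, w i x ≤ 1) → ρ x = 0 → ∀ i, w i x < 1)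
    (hL : ∀ x ∈ V, (∀ i, w i x ≤ 1) → ρ x ∈ L) :
    Module.finrank C V ≤ Module.finrank κ L := by
  classical
  obtain ⟨b, hb1, -, hb3⟩ := exists_red_basis hC hn w hna hext V
  have hρzero : ρ 0 = 0 := by
    have := hρadd 0 0 (fun i => by simp) (fun i => by simp)
    simpa using this
  have hle : ∀ (s : Finset (Fin (Module.finrank C V))) (c : Fin (Module.finrank C V) → C),
      (∀ j, ‖c j‖ ≤ 1) → (∀ i, w i (∑ j ∈ s, c j • (b j : K)) ≤ 1) := by
    intro s c hc i
    refine na_sum (hna i) _ _ zero_le_one fun j _ => ?_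
    rw [Algebra.smul_def, map_mul, hext]
    exact mul_le_one₀ (hc j) ((w i).nonneg _) (hb1 i j)
  have hsum : ∀ (s : Finset (Fin (Module.finrank C V))) (c : Fin (Module.finrank C V) → C),
      (∀ j, ‖c j‖ ≤ 1) → ρ (∑ j ∈ s, c j • (b j : K)) = ∑ j ∈ s, red (c j) • ρ (b j : K) := by
    intro s c hc
    induction s using Finset.induction_on with
    | empty => simpa using hρzero
    | insert a s ha ih =>
      have h1 : ∀ i, w i (c a • (b a : K)) ≤ 1 := by
        intro i
        rw [Algebra.smul_def, map_mul, hext]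
        exact mul_le_one₀ (hc a) ((w i).nonneg _) (hb1 i a)
      rw [Finset.sum_insert ha, Finset.sum_insert ha, hρadd _ _ h1 (hle s c hc), ih,
        hρsmul _ _ (hc a) (fun i => hb1 i a)]
  have hli : LinearIndependent κ (fun j => (⟨ρ (b j : K), hL _ (b j).2 (fun i => hb1 i j)⟩ : L)) := by
    rw [Fintype.linearIndependent_iff]
    intro g hg j
    choose c hc hc' using fun j => hred (g j)
    have h1 : ρ (∑ j, c j • (b j : K)) = 0 := by
      rw [hsum Finset.univ c hc]
      have h2 := congrArg (Subtype.val) hg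
      simpa [hc'] using h2
    have h3 := hb3 c (r := 1) (hρ0 _ (hle Finset.univ c hc) h1) j
    rw [← hc' j, hred0 _ h3]
  have := hli.fintype_card_le_finrank
  simpa using this

end P025H458
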