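import Vale.Agent.P025.R2.H458.Approx

/-!
The inequality `∑ f_w ≤ [K : C(T)]` (P025, blueprint (7.1) (b)), in a residue-free form.
-/

namespace P025H458

open Polynomial

variable {C : Type*} [NontriviallyNormedField C] {K : Type*} [Field K] [Algebra C K]

/-- a finite family of polynomials, not all zero, can be scaled so that all coefficients have norm
at most one, with equality somewhere -/
theorem exists_scale {ι : Type*} [Fintype ι] (P : ι → C[X]) (h : ∃ i, P i ≠ 0) :
    ∃ c : C, c ≠ 0 ∧ (∀ i k, ‖(Polynomial.C c * P i).coeff k‖ ≤ 1) ∧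
      ∃ i k, ‖(Polynomial.C c * P i).coeff k‖ = 1 := by
  classical
  obtain ⟨i₁, hi₁⟩ := h
  let s : Finset (ι × ℕ) := (Finset.univ : Finset ι) ×ˢ
    Finset.range (∑ i, ((P i).natDegree + 1))
  have hdeg : ∀ i, (P i).natDegree < ∑ i, ((P i).natDegree + 1) := by
    intro i
    have := Finset.single_le_sum (f := fun i => (P i).natDegree + 1)
      (fun _ _ => Nat.zero_le _) (Finset.mem_univ i)
    exact this
  have hs : s.Nonempty := by
    refine ⟨(i₁, 0), ?_⟩
    simp only [s, Finset.mem_product, Finset.mem_univ, Finset.mem_range, true_and]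
    exact lt_of_le_of_lt (Nat.zero_le _) (hdeg i₁)
  obtain ⟨⟨i₀, k₀⟩, h0, hmax⟩ := Finset.exists_max_image s (fun p => ‖(P p.1).coeff p.2‖) hs
  have hmax' : ∀ i k, ‖(P i).coeff k‖ ≤ ‖(P i₀).coeff k₀‖ := by
    intro i k
    by_cases hk : k < ∑ i, ((P i).natDegree + 1)
    · exact hmax (i, k) (by simp [s, hk])
    · rw [Polynomial.coeff_eq_zero_of_natDegree_lt (lt_of_lt_of_le (hdeg i) (not_lt.mp hk)),
        norm_zero]
      exact norm_nonneg _
  have hc : (P i₀).coeff k₀ ≠ 0 := by
    intro hc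
    have h1 := hmax' i₁ (P i₁).natDegree
    rw [hc, norm_zero] at h1
    have h2 : (P i₁).coeff (P i₁).natDegree = 0 := by
      simpa using le_antisymm h1 (norm_nonneg _)
    exact hi₁ (Polynomial.leadingCoeff_eq_zero.mp h2)
  have hpos : 0 < ‖(P i₀).coeff k₀‖ := norm_pos_iff.mpr hc
  refine ⟨((P i₀).coeff k₀)⁻¹, inv_ne_zero hc, fun i k => ?_, i₀, k₀, ?_⟩
  · rw [Polynomial.coeff_C_mul, norm_mul, norm_inv, inv_mul_le_iff₀ hpos, mul_one]
    exact hmax' i k
  · rw [Polynomial.coeff_C_mul, norm_mul, norm_inv, inv_mul_cancel₀ hpos.ne']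

variable [Algebra (RatFunc C) K] [IsScalarTower C (RatFunc C) K]

/-- image of a polynomial in `K` -/
noncomputable def pol (K : Type*) [Field K] [Algebra (RatFunc C) K] (P : C[X]) : K :=
  algebraMap (RatFunc C) K (algebraMap C[X] (RatFunc C) P)

theorem pol_le {w : AbsoluteValue K ℝ} (hna : IsNonarchimedean w)
    (hext : ∀ c : C, w (algebraMap C K c) = ‖c‖)
    (hT : w (algebraMap (RatFunc C) K RatFunc.X) ≤ 1) (P : C[X]) {r : ℝ} (hr : 0 ≤ r)
    (hP : ∀ k, ‖P.coeff k‖ ≤ r) : w (pol K P) ≤ r := by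
  rw [pol, P.as_sum_range, map_sum, map_sum]
  refine na_sum hna _ _ hr fun k _ => ?_
  rw [← Polynomial.C_mul_X_pow_eq_monomial, map_mul, map_pow, map_mul, map_pow, map_mul, map_pow,
    RatFunc.algebraMap_X, RatFunc.algebraMap_C,
    ← RatFunc.algebraMap_eq_C, ← IsScalarTower.algebraMap_apply C (RatFunc C) K, hext]
  exact (mul_le_of_le_one_right (norm_nonneg _) (pow_le_one₀ (w.nonneg _) hT)).trans (hP k)

/-- **`∑ f_w ≤ [K : C(T)]`**: families with independent reductions at different extensions of the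
Gauss norm can be combined to a linearly independent family over `C(T)` -/
theorem sum_le_finrank [FiniteDimensional (RatFunc C) K] {ι : Type*} [Fintype ι]
    (w : ι → AbsoluteValue K ℝ)
    (hna : ∀ i, IsNonarchimedean (w i)) (hext : ∀ i (c : C), w i (algebraMap C K c) = ‖c‖)
    (hinj : Function.Injective w) (hT : ∀ i, w i (algebraMap (RatFunc C) K RatFunc.X) ≤ 1)
    (n : ι → ℕ) (x : ∀ i, Fin (n i) → K)
    (hind : ∀ i (P : Fin (n i) → C[X]), (∀ j k, ‖(P j).coeff k‖ ≤ 1) →
      w i (∑ j, pol K (P j) * x i j) < 1 → ∀ j k, ‖(P j).coeff k‖ < 1) :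
    ∑ i, n i ≤ Module.finrank (RatFunc C) K := by
  classical
  have happ : ∀ i (j : Fin (n i)), ∃ y : K, w i (y - x i j) < 1 ∧ ∀ l, l ≠ i → w l y < 1 :=
    fun i j => exists_approx w hna hext hinj i (x i j) zero_lt_one
  choose y hy hy' using happ
  let _ : Algebra C[X] K :=
    ((algebraMap (RatFunc C) K).comp (algebraMap C[X] (RatFunc C))).toAlgebra
  have : IsScalarTower C[X] (RatFunc C) K := IsScalarTower.of_algebraMap_eq fun _ => rfl
  have hli : LinearIndependent C[X] (fun p : (Σ i, Fin (n i)) => y p.1 p.2) := by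
    rw [Fintype.linearIndependent_iff]
    intro P hP
    by_contra hcon
    push Not at hcon
    obtain ⟨c, hc0, hc1, ⟨i₀, j₀⟩, k₀, hc2⟩ := exists_scale P hcon
    have hsum : ∑ p : (Σ i, Fin (n i)), pol K (Polynomial.C c * P p) * y p.1 p.2 = 0 := by
      have h1 : ∀ p : (Σ i, Fin (n i)), pol K (Polynomial.C c * P p) * y p.1 p.2 =
          pol K (Polynomial.C c) * (P p • y p.1 p.2) := by
        intro p
        rw [Algebra.smul_def, pol, pol, map_mul, map_mul, mul_assoc]
        rfl
      rw [Finset.sum_congr rfl fun p _ => h1 p, ← Finset.mul_sum, hP, mul_zero]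
    rw [← Finset.univ_sigma_univ, Finset.sum_sigma] at hsum
    rw [← Finset.add_sum_erase _ _ (Finset.mem_univ i₀)] at hsum
    -- reduction at `i₀`
    have h2 : w i₀ (∑ j, pol K (Polynomial.C c * P ⟨i₀, j⟩) * x i₀ j) < 1 := by
      have h3 : ∑ j, pol K (Polynomial.C c * P ⟨i₀, j⟩) * x i₀ j =
          -(∑ j, pol K (Polynomial.C c * P ⟨i₀, j⟩) * (y i₀ j - x i₀ j)) -
          ∑ i ∈ Finset.univ.erase i₀, ∑ j : Fin (n i),
            pol K (Polynomial.C c * P ⟨i, j⟩) * y i j := by
        simp only [mul_sub, Finset.sum_sub_distrib]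
        linear_combination hsum
      have hle : ∀ p : (Σ i, Fin (n i)), w i₀ (pol K (Polynomial.C c * P p)) ≤ 1 := fun p =>
        pol_le (hna i₀) (hext i₀) (hT i₀) _ zero_le_one (hc1 p)
      rw [h3]
      refine (na_sub (hna i₀) _ _).trans_lt (max_lt ?_ ?_)
      · rw [AbsoluteValue.map_neg]
        refine na_sum_lt (hna i₀) _ _ zero_lt_one fun j _ => ?_
        rw [map_mul]
        exact mul_lt_one_of_nonneg_of_lt_one_right (hle _) ((w i₀).nonneg _) (hy i₀ j)
      · refine na_sum_lt (hna i₀) _ _ zero_lt_one fun i hi => ?_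
        refine na_sum_lt (hna i₀) _ _ zero_lt_one fun j _ => ?_
        rw [map_mul]
        exact mul_lt_one_of_nonneg_of_lt_one_right (hle _) ((w i₀).nonneg _)
          (hy' i j i₀ (Finset.ne_of_mem_erase hi).symm)
    have h4 := hind i₀ (fun j => Polynomial.C c * P ⟨i₀, j⟩) (fun j k => hc1 _ k) h2 j₀ k₀
    rw [hc2] at h4
    exact lt_irrefl _ h4
  have hli' := (LinearIndependent.iff_fractionRing C[X] (RatFunc C)).mp hli
  have := hli'.fintype_card_le_finrank
  simpa using this

end P025H458
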